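import Vale.Agent.P159.T1.S.H469.Harm

/-!
Gradient bounds for discrete harmonic functions.
-/

open Filter Topology

namespace Vale.Agent.P159.T1.S.H469

open Vale.Agent.P159.T1.D

/-! ### gradient bounds -/

/-- the box of radius `m` -/
def bx (f : Z2) (m : ℕ) : Set Z2 := {g | |g.1 - f.1| ≤ m ∧ |g.2 - f.2| ≤ m}

lemma bx_mono {f : Z2} {m n : ℕ} (h : m ≤ n) : bx f m ⊆ bx f n := fun g hg =>
  ⟨hg.1.trans (by exact_mod_cast h), hg.2.trans (by exact_mod_cast h)⟩

lemma bx_sub {f g : Z2} {m n k : ℕ} (hg : g ∈ bx f m) (h : m + n ≤ k) : bx g n ⊆ bx f k := by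
  rintro x ⟨h1, h2⟩
  obtain ⟨h3, h4⟩ := hg
  have h5 : (m : ℤ) + n ≤ k := by exact_mod_cast h
  constructor
  · calc |x.1 - f.1| = |(x.1 - g.1) + (g.1 - f.1)| := by ring_nf
      _ ≤ |x.1 - g.1| + |g.1 - f.1| := abs_add_le _ _
      _ ≤ k := by linarith
  · calc |x.2 - f.2| = |(x.2 - g.2) + (g.2 - f.2)| := by ring_nf
      _ ≤ |x.2 - g.2| + |g.2 - f.2| := abs_add_le _ _
      _ ≤ k := by linarith

/-- the bound in one direction (one sided) -/
lemma grad_one {v : Z2 → ℝ} {f : Z2} {m : ℕ} (hm : 1 ≤ m) {M : ℝ}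
    (h1 : ∀ g ∈ bx f m, lap v g = 0) (h2 : ∀ g ∈ bx f (m + 1), |v g| ≤ M) :
    v (f.1 + 1, f.2) - v f ≤ 2 * M / m := by
  have hm' : (1 : ℝ) ≤ m := by exact_mod_cast hm
  have hM : 0 ≤ M := (abs_nonneg _).trans (h2 f ⟨by simp; positivity, by simp; positivity⟩)
  -- the reflection
  set s : Z2 → Z2 := fun y => (2 * f.1 + 1 - y.1, y.2) with hs
  set w : Z2 → ℝ := fun y => v y - v (s y) with hw
  -- the barrier
  set b : Z2 → ℝ := fun y => 2 * M * (2 * ((y.1 - f.1 : ℝ) - 1 / 2) / m -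
    ((((y.1 - f.1 : ℝ) - 1 / 2) ^ 2 - 1 / 4) / m ^ 2) + (y.2 - f.2 : ℝ) ^ 2 / m ^ 2) with hb
  set H : Finset Z2 := Finset.Icc (f.1 + 1) (f.1 + m) ×ˢ Finset.Icc (f.2 - m) (f.2 + m) with hH
  have memH : ∀ y : Z2, y ∈ H ↔ (f.1 + 1 ≤ y.1 ∧ y.1 ≤ f.1 + m) ∧
      (f.2 - m ≤ y.2 ∧ y.2 ≤ f.2 + m) := by
    intro y
    rw [hH, Finset.mem_product, Finset.mem_Icc, Finset.mem_Icc]
  have lw : ∀ y ∈ H, lap w y = 0 := by
    intro y hy
    rw [memH] at hy
    have e1 : lap w y = lap v y - lap v (s y) := by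
      simp only [hw, hs, lap]
      ring_nf
    have e2 : y ∈ bx f m := by
      constructor <;> rw [abs_le] <;> constructor <;> linarith [hy.1.1, hy.1.2, hy.2.1, hy.2.2]
    have e3 : s y ∈ bx f m := by
      simp only [hs]
      constructor <;> rw [abs_le] <;> constructor <;>
        (simp only; linarith [hy.1.1, hy.1.2, hy.2.1, hy.2.2])
    rw [e1, h1 y e2, h1 _ e3, sub_self]
  have lb : ∀ y : Z2, lap b y = 0 := by
    intro y
    simp only [hb, lap]
    push_cast
    ring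
  have key := max_pr (R := H) (v := fun y => w y - b y)
    (fun y hy => by rw [lap_sub, lw y hy, lb y, sub_self]) ?_ (f.1 + 1, f.2) ?_
  · have e1 : w (f.1 + 1, f.2) = v (f.1 + 1, f.2) - v f := by
      simp only [hw, hs]
      congr 2
      ext
      · simp only; ring
      · rfl
    have e2 : b (f.1 + 1, f.2) = 2 * M / m := by
      simp only [hb]
      push_cast
      field_simp
      ring
    rw [e1, e2] at key
    linarith
  · intro y hy hpos g hg hgH
    rw [memH] at hy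
    rw [memH] at hgH
    have hw2 : ∀ z ∈ bx f (m + 1), s z ∈ bx f (m + 1) → w z ≤ 2 * M := by
      intro z hz hz'
      have a1 := (abs_le.1 (h2 z hz)).2
      have a2 := (abs_le.1 (h2 _ hz')).1
      simp only [hw]
      linarith
    have hgw : ∀ z : Z2, f.1 ≤ z.1 → z.1 ≤ f.1 + m + 1 → f.2 - m - 1 ≤ z.2 →
        z.2 ≤ f.2 + m + 1 → w z ≤ 2 * M := by
      intro z z1 z2 z3 z4
      refine hw2 z ?_ ?_
      · constructor <;> rw [abs_le] <;> constructor <;> push_cast <;> linarith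
      · simp only [hs]
        constructor <;> rw [abs_le] <;> constructor <;> (simp only; push_cast; linarith)
    have low : ∀ X Y : ℝ, 1 / 2 ≤ X → X ≤ m + 1 / 2 → (X = m + 1 / 2 ∨ (m : ℝ) ≤ |Y|) →
        2 * M ≤ 2 * M * (2 * X / m - (X ^ 2 - 1 / 4) / m ^ 2 + Y ^ 2 / m ^ 2) := by
      intro X Y hX1 hX2 hor
      have hmp : (0 : ℝ) < m := by linarith
      have : 1 ≤ 2 * X / m - (X ^ 2 - 1 / 4) / m ^ 2 + Y ^ 2 / m ^ 2 := by
        have e : 2 * X / m - (X ^ 2 - 1 / 4) / m ^ 2 + Y ^ 2 / m ^ 2 =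
            (2 * X * m - (X ^ 2 - 1 / 4) + Y ^ 2) / m ^ 2 := by
          field_simp
        rw [e, le_div_iff₀ (by positivity), one_mul]
        rcases hor with h | h
        · rw [h]
          nlinarith [sq_nonneg Y]
        · have : (m : ℝ) ^ 2 ≤ Y ^ 2 := by
            rw [← sq_abs Y]
            exact pow_le_pow_left₀ hmp.le h 2
          nlinarith
      nlinarith
    rcases mem_nb.1 hg with rfl | rfl | rfl | rfl
    · -- right neighbour: `y.1 = f.1 + m`
      have hy1 : y.1 = f.1 + m := by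
        by_contra hne
        exact hgH ⟨⟨by simp only; omega, by simp only; omega⟩, hy.2⟩
      have a1 := hgw (y.1 + 1, y.2) (by simp only; omega) (by simp only; omega)
        (by simp only; omega) (by simp only; omega)
      have a2 := low ((((y.1 + 1 : ℤ) : ℝ) - f.1) - 1 / 2) ((y.2 : ℝ) - f.2)
        (by rw [hy1]; push_cast; linarith) (by rw [hy1]; push_cast; linarith)
        (Or.inl (by rw [hy1]; push_cast; ring))
      simp only [hb]
      linarith
    · -- left neighbour: `y.1 = f.1 + 1`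
      have hy1 : y.1 = f.1 + 1 := by
        by_contra hne
        exact hgH ⟨⟨by simp only; omega, by simp only; omega⟩, hy.2⟩
      have a1 : w (y.1 - 1, y.2) = -w y := by
        simp only [hw, hs]
        have i1 : ((2 * f.1 + 1 - (y.1 - 1), y.2) : Z2) = y := by
          ext
          · simp only; omega
          · rfl
        have i2 : ((2 * f.1 + 1 - y.1, y.2) : Z2) = (y.1 - 1, y.2) := by
          ext
          · simp only; omega
          · rfl
        rw [i1, i2]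
        ring
      have a2 : 0 ≤ b y + b (y.1 - 1, y.2) := by
        have : b y + b (y.1 - 1, y.2) = 2 * M * (2 * ((y.2 : ℝ) - f.2) ^ 2 / m ^ 2) := by
          simp only [hb]
          rw [hy1]
          push_cast
          field_simp
          ring
        rw [this]
        positivity
      show w (y.1 - 1, y.2) - b (y.1 - 1, y.2) ≤ 0
      rw [a1]
      linarith
    · -- upper neighbour
      have hy2 : y.2 = f.2 + m := by
        by_contra hne
        exact hgH ⟨hy.1, ⟨by simp only; omega, by simp only; omega⟩⟩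
      have a1 := hgw (y.1, y.2 + 1) (by simp only; omega) (by simp only; omega)
        (by simp only; omega) (by simp only; omega)
      have c1 : ((f.1 : ℝ) + 1) ≤ y.1 := by exact_mod_cast hy.1.1
      have c2 : (y.1 : ℝ) ≤ f.1 + m := by exact_mod_cast hy.1.2
      have a2 := low (((y.1 : ℝ) - f.1) - 1 / 2) (((y.2 + 1 : ℤ) : ℝ) - f.2)
        (by linarith) (by linarith) (Or.inr (by
          rw [hy2]
          push_cast
          rw [abs_of_nonneg (by linarith)]
          linarith))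
      simp only [hb]
      linarith
    · -- lower neighbour
      have hy2 : y.2 = f.2 - m := by
        by_contra hne
        exact hgH ⟨hy.1, ⟨by simp only; omega, by simp only; omega⟩⟩
      have a1 := hgw (y.1, y.2 - 1) (by simp only; omega) (by simp only; omega)
        (by simp only; omega) (by simp only; omega)
      have c1 : ((f.1 : ℝ) + 1) ≤ y.1 := by exact_mod_cast hy.1.1
      have c2 : (y.1 : ℝ) ≤ f.1 + m := by exact_mod_cast hy.1.2
      have a2 := low (((y.1 : ℝ) - f.1) - 1 / 2) (((y.2 - 1 : ℤ) : ℝ) - f.2)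
        (by linarith) (by linarith) (Or.inr (by
          rw [hy2]
          push_cast
          rw [abs_of_nonpos (by linarith)]
          linarith))
      simp only [hb]
      linarith
  · rw [memH]
    refine ⟨⟨le_rfl, ?_⟩, ?_, ?_⟩
    · simp only; omega
    · simp only; omega
    · simp only; omega

/-! ### all directions -/

lemma lap_swap (v : Z2 → ℝ) (f : Z2) :
    lap (fun y => v (y.2, y.1)) f = lap v (f.2, f.1) := by
  unfold lap
  ring

lemma lap_refl (v : Z2 → ℝ) (f : Z2) :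
    lap (fun y => v (-y.1, y.2)) f = lap v (-f.1, f.2) := by
  unfold lap
  simp only
  rw [show -(f.1 + 1) = -f.1 - 1 by ring, show -(f.1 - 1) = -f.1 + 1 by ring]
  ring

lemma lap_shift (v : Z2 → ℝ) (a f : Z2) : lap (fun y => v (y + a)) f = lap v (f + a) := by
  unfold lap
  have e1 : ((f.1 + 1, f.2) : Z2) + a = ((f + a).1 + 1, (f + a).2) := by
    ext <;> simp only [Prod.fst_add, Prod.snd_add]; ring
  have e2 : ((f.1 - 1, f.2) : Z2) + a = ((f + a).1 - 1, (f + a).2) := by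
    ext <;> simp only [Prod.fst_add, Prod.snd_add]; ring
  have e3 : ((f.1, f.2 + 1) : Z2) + a = ((f + a).1, (f + a).2 + 1) := by
    ext <;> simp only [Prod.fst_add, Prod.snd_add]; ring
  have e4 : ((f.1, f.2 - 1) : Z2) + a = ((f + a).1, (f + a).2 - 1) := by
    ext <;> simp only [Prod.fst_add, Prod.snd_add]; ring
  simp only
  rw [e1, e2, e3, e4]

lemma grad_e1 {v : Z2 → ℝ} {f : Z2} {m : ℕ} (hm : 1 ≤ m) {M : ℝ}
    (h1 : ∀ g ∈ bx f m, lap v g = 0) (h2 : ∀ g ∈ bx f (m + 1), |v g| ≤ M) :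
    |v (f.1 + 1, f.2) - v f| ≤ 2 * M / m := by
  have a1 := grad_one hm h1 h2
  have a2 := grad_one (v := fun y => -v y) hm (fun g hg => by rw [lap_neg, h1 g hg, neg_zero])
    (fun g hg => by rw [abs_neg]; exact h2 g hg)
  rw [abs_le]
  constructor <;> linarith

/-- **gradient bound** -/
theorem grad_nb {v : Z2 → ℝ} {f : Z2} {m : ℕ} (hm : 1 ≤ m) {M : ℝ}
    (h1 : ∀ g ∈ bx f m, lap v g = 0) (h2 : ∀ g ∈ bx f (m + 1), |v g| ≤ M) :
    ∀ g ∈ nb f, |v g - v f| ≤ 2 * M / m := by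
  -- reflection of the first coordinate
  have refl1 : ∀ {v : Z2 → ℝ} {f : Z2}, (∀ g ∈ bx f m, lap v g = 0) →
      (∀ g ∈ bx f (m + 1), |v g| ≤ M) → |v (f.1 - 1, f.2) - v f| ≤ 2 * M / m := by
    intro v f h1 h2
    have mem : ∀ {n : ℕ} {g : Z2}, g ∈ bx (-f.1, f.2) n → ((-g.1, g.2) : Z2) ∈ bx f n := by
      rintro n g ⟨a, b⟩
      refine ⟨?_, b⟩
      rw [← abs_neg]
      have : -(((-g.1, g.2) : Z2).1 - f.1) = g.1 - -f.1 := by simp only; ring
      rw [this]
      exact a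
    have a1 := grad_e1 (v := fun y => v (-y.1, y.2)) (f := (-f.1, f.2)) hm
      (fun g hg => by rw [lap_refl]; exact h1 _ (mem hg)) (fun g hg => h2 _ (mem hg))
    simp only at a1
    rw [show -(-f.1 + 1) = f.1 - 1 by ring, neg_neg] at a1
    exact a1
  -- swap
  have mem2 : ∀ {f : Z2} {n : ℕ} {g : Z2}, g ∈ bx (f.2, f.1) n → ((g.2, g.1) : Z2) ∈ bx f n := by
    rintro f n g ⟨a, b⟩
    exact ⟨b, a⟩
  intro g hg
  rcases mem_nb.1 hg with rfl | rfl | rfl | rfl
  · exact grad_e1 hm h1 h2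
  · exact refl1 h1 h2
  · exact grad_e1 (v := fun y => v (y.2, y.1)) (f := (f.2, f.1)) hm
      (fun g hg => by rw [lap_swap]; exact h1 _ (mem2 hg)) (fun g hg => h2 _ (mem2 hg))
  · exact refl1 (v := fun y => v (y.2, y.1)) (f := (f.2, f.1))
      (fun g hg => by rw [lap_swap]; exact h1 _ (mem2 hg)) (fun g hg => h2 _ (mem2 hg))

/-- the unit vectors -/
def un : Finset Z2 := {(1, 0), (-1, 0), (0, 1), (0, -1)}

lemma mem_un {a : Z2} : a ∈ un ↔ a = (1, 0) ∨ a = (-1, 0) ∨ a = (0, 1) ∨ a = (0, -1) := by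
  unfold un
  simp only [Finset.mem_insert, Finset.mem_singleton]

lemma add_un {f a : Z2} (ha : a ∈ un) : f + a ∈ nb f := by
  rw [mem_nb]
  rcases mem_un.1 ha with rfl | rfl | rfl | rfl
  · left; ext <;> simp
  · right; left; ext <;> simp; ring
  · right; right; left; ext <;> simp
  · right; right; right; ext <;> simp; ring

lemma un_bx {f a : Z2} (ha : a ∈ un) : f + a ∈ bx f 1 := by
  rcases mem_un.1 ha with rfl | rfl | rfl | rfl <;> constructor <;> simp

lemma self_bx (f : Z2) (n : ℕ) : f ∈ bx f n := by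
  constructor <;> simp

/-- first differences -/
theorem grad_un {v : Z2 → ℝ} {f : Z2} {m : ℕ} (hm : 1 ≤ m) {M : ℝ}
    (h1 : ∀ g ∈ bx f m, lap v g = 0) (h2 : ∀ g ∈ bx f (m + 1), |v g| ≤ M) {a : Z2}
    (ha : a ∈ un) : |v (f + a) - v f| ≤ 2 * M / m := grad_nb hm h1 h2 _ (add_un ha)

/-- **second differences** -/
theorem grad_two {v : Z2 → ℝ} {f : Z2} {k : ℕ} (hk : 1 ≤ k) {M : ℝ}
    (h1 : ∀ g ∈ bx f (2 * k + 1), lap v g = 0) (h2 : ∀ g ∈ bx f (2 * k + 2), |v g| ≤ M)
    {a c : Z2} (ha : a ∈ un) (hc : c ∈ un) :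
    |(v (f + c + a) - v (f + c)) - (v (f + a) - v f)| ≤ 4 * M / k ^ 2 := by
  have h3 := grad_un (v := fun y => v (y + a) - v y) (f := f) (M := 2 * M / k) hk
    (fun g hg => by
      rw [lap_sub (fun y => v (y + a)) v, lap_shift,
        h1 g (bx_mono (by omega) hg), h1 (g + a) (bx_sub hg (by omega) (un_bx ha)), sub_self])
    (fun g hg => grad_un hk (fun x hx => h1 x (bx_sub hg (by omega) hx))
      (fun x hx => h2 x (bx_sub hg (by omega) hx)) ha) hc
  refine h3.trans (le_of_eq ?_)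
  have : (k : ℝ) ≠ 0 := by positivity
  field_simp
  ring

/-! ### the gradient on bonds -/

lemma line {F : Z2 → ℝ} {g c : Z2} {δ : ℝ} (n : ℕ)
    (h : ∀ j : ℕ, j < n → |F (g + j • c + c) - F (g + j • c)| ≤ δ) :
    |F (g + n • c) - F g| ≤ n * δ := by
  induction n with
  | zero => simp
  | succ n ih =>
    have h1 := ih fun j hj => h j (by omega)
    have h2 := h n (by omega)
    have e : g + (n + 1) • c = g + n • c + c := by rw [succ_nsmul, add_assoc]
    rw [e]
    calc |F (g + n • c + c) - F g|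
        = |(F (g + n • c + c) - F (g + n • c)) + (F (g + n • c) - F g)| := by ring_nf
      _ ≤ |F (g + n • c + c) - F (g + n • c)| + |F (g + n • c) - F g| := abs_add_le _ _
      _ ≤ ((n + 1 : ℕ) : ℝ) * δ := by push_cast; linarith

/-- a bound for the increments gives a bound for the oscillation -/
lemma path {F : Z2 → ℝ} {f : Z2} {l : ℕ} {δ : ℝ}
    (h : ∀ g ∈ bx f l, ∀ c ∈ un, |F (g + c) - F g| ≤ δ) {u : Z2} (h1 : |u.1| ≤ l)
    (h2 : |u.2| ≤ l) : |F (f + u) - F f| ≤ 2 * l * δ := by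
  have hδ : 0 ≤ δ := (abs_nonneg _).trans (h f (self_bx f l) (1, 0) (mem_un.2 (Or.inl rfl)))
  -- the two directions
  obtain ⟨c, hc, hcu⟩ : ∃ c ∈ un, ((u.1, 0) : Z2) = u.1.natAbs • c ∧ |c.1| ≤ 1 ∧ c.2 = 0 := by
    rcases le_total 0 u.1 with h0 | h0
    · refine ⟨(1, 0), mem_un.2 (Or.inl rfl), ?_, by simp, rfl⟩
      ext <;> simp [abs_of_nonneg h0]
    · refine ⟨(-1, 0), mem_un.2 (Or.inr (Or.inl rfl)), ?_, by simp, rfl⟩
      ext <;> simp [abs_of_nonpos h0]
  obtain ⟨d, hd, hdu⟩ : ∃ d ∈ un, ((0, u.2) : Z2) = u.2.natAbs • d ∧ |d.2| ≤ 1 ∧ d.1 = 0 := by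
    rcases le_total 0 u.2 with h0 | h0
    · refine ⟨(0, 1), mem_un.2 (Or.inr (Or.inr (Or.inl rfl))), ?_, by simp, rfl⟩
      ext <;> simp [abs_of_nonneg h0]
    · refine ⟨(0, -1), mem_un.2 (Or.inr (Or.inr (Or.inr rfl))), ?_, by simp, rfl⟩
      ext <;> simp [abs_of_nonpos h0]
  have n1 : u.1.natAbs ≤ l := by
    rw [← Int.natCast_natAbs] at h1
    exact_mod_cast h1
  have n2 : u.2.natAbs ≤ l := by
    rw [← Int.natCast_natAbs] at h2
    exact_mod_cast h2
  have a1 := line (F := F) (g := f) (c := c) (δ := δ) u.1.natAbs fun j hj => by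
    refine h _ ⟨?_, ?_⟩ c hc
    · simp only [Prod.fst_add, Prod.smul_fst, add_sub_cancel_left]
      rw [nsmul_eq_mul, abs_mul, Nat.abs_cast]
      have h3 : (j : ℤ) * |c.1| ≤ j * 1 := mul_le_mul_of_nonneg_left hcu.2.1 (by positivity)
      have h4 : (j : ℤ) ≤ l := by exact_mod_cast (hj.le.trans n1)
      linarith
    · simp [hcu.2.2]
  have a2 := line (F := F) (g := f + (u.1, 0)) (c := d) (δ := δ) u.2.natAbs fun j hj => by
    refine h _ ⟨?_, ?_⟩ d hd
    · simp only [Prod.fst_add, Prod.smul_fst, hdu.2.2, smul_zero, add_zero,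
        add_sub_cancel_left]
      exact h1
    · simp only [Prod.snd_add, Prod.smul_snd, add_zero, add_sub_cancel_left]
      rw [nsmul_eq_mul, abs_mul, Nat.abs_cast]
      have h3 : (j : ℤ) * |d.2| ≤ j * 1 := mul_le_mul_of_nonneg_left hdu.2.1 (by positivity)
      have h4 : (j : ℤ) ≤ l := by exact_mod_cast (hj.le.trans n2)
      linarith
  rw [← hcu.1] at a1
  rw [← hdu.1] at a2
  have e : f + (u.1, 0) + (0, u.2) = f + u := by
    ext <;> simp
  rw [e] at a2
  have b1 : (u.1.natAbs : ℝ) * δ ≤ l * δ :=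
    mul_le_mul_of_nonneg_right (by exact_mod_cast n1) hδ
  have b2 : (u.2.natAbs : ℝ) * δ ≤ l * δ :=
    mul_le_mul_of_nonneg_right (by exact_mod_cast n2) hδ
  calc |F (f + u) - F f|
      = |(F (f + u) - F (f + (u.1, 0))) + (F (f + (u.1, 0)) - F f)| := by ring_nf
    _ ≤ |F (f + u) - F (f + (u.1, 0))| + |F (f + (u.1, 0)) - F f| := abs_add_le _ _
    _ ≤ 2 * l * δ := by linarith

/-- the direction across a bond -/
def cr (e : Bnd) : Z2 := if e.2 then (-1, 0) else (0, 1)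

lemma cr_un (e : Bnd) : cr e ∈ un := by
  unfold cr
  split_ifs
  · exact mem_un.2 (Or.inr (Or.inl rfl))
  · exact mem_un.2 (Or.inr (Or.inr (Or.inl rfl)))

lemma lf_eq (e : Bnd) : lf e = rt e + cr e := by
  unfold lf rt cr
  split_ifs
  · ext <;> simp; ring
  · ext <;> simp

lemma cr_sh (u : Z2) (e : Bnd) : cr (sh u e) = cr e := rfl

lemma rt_sh (u : Z2) (e : Bnd) : rt (sh u e) = rt e + u := by
  unfold rt sh
  simp only
  split_ifs
  · rfl
  · ext <;> simp; ring

lemma dr_eq (v : Z2 → ℝ) (e : Bnd) : dr v e = v (rt e + cr e) - v (rt e) := by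
  unfold dr
  rw [lf_eq]

lemma dr_sh (v : Z2 → ℝ) (u : Z2) (e : Bnd) :
    dr v (sh u e) = v (rt e + u + cr e) - v (rt e + u) := by
  rw [dr_eq, rt_sh, cr_sh]

/-- **gradient bound on a bond** -/
theorem dr_le {v : Z2 → ℝ} {e : Bnd} {m : ℕ} (hm : 1 ≤ m) {M : ℝ}
    (h1 : ∀ g ∈ bx (rt e) m, lap v g = 0) (h2 : ∀ g ∈ bx (rt e) (m + 1), |v g| ≤ M) :
    |dr v e| ≤ 2 * M / m := by
  rw [dr_eq]
  exact grad_un hm h1 h2 (cr_un e)

/-- **oscillation of the gradient** -/
theorem dr_sh_le {v : Z2 → ℝ} {e : Bnd} {k l : ℕ} (hk : 1 ≤ k) {M : ℝ}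
    (h1 : ∀ g ∈ bx (rt e) (2 * k + 1 + l), lap v g = 0)
    (h2 : ∀ g ∈ bx (rt e) (2 * k + 2 + l), |v g| ≤ M) {u : Z2}
    (hu : u ∈ Finset.Icc (-(l : ℤ), -(l : ℤ)) ((l : ℤ), (l : ℤ))) :
    |dr v (sh u e) - dr v e| ≤ 2 * l * (4 * M / k ^ 2) := by
  rw [Finset.mem_Icc] at hu
  obtain ⟨⟨a1, a2⟩, b1, b2⟩ := hu
  simp only at a1 a2 b1 b2
  rw [dr_sh, dr_eq]
  refine path (F := fun g => v (g + cr e) - v g) (f := rt e) (fun g hg c hc => ?_)
    (abs_le.2 ⟨a1, b1⟩) (abs_le.2 ⟨a2, b2⟩)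
  exact grad_two hk (fun x hx => h1 x (bx_sub hg (by omega) hx))
    (fun x hx => h2 x (bx_sub hg (by omega) hx)) (cr_un e) hc

end Vale.Agent.P159.T1.S.H469
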