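import Vale.Agent.P159.T1.S.H469.Harm

/-!
Discrete potential theory: Green identity, Dirichlet principle, Caccioppoli inequalities,
truncation.
-/

open Filter Topology

namespace Vale.Agent.P159.T1.S.H469

open Vale.Agent.P159.T1.D

/-! ### summation by parts -/

lemma dr_off {R : Finset Z2} {u : Z2 → ℝ} (hu : ∀ f, f ∉ R → u f = 0) {e : Bnd}
    (he : e ∉ bd R) : dr u e = 0 := by
  rw [H910.mem_bd, not_or] at he
  unfold dr
  rw [hu _ he.1, hu _ he.2, sub_zero]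

lemma dr_off_eq {R : Finset Z2} {v t : Z2 → ℝ} (hv : ∀ f, f ∉ R → v f = t f) {e : Bnd}
    (he : e ∉ bd R) : dr v e = dr t e := by
  rw [H910.mem_bd, not_or] at he
  unfold dr
  rw [hv _ he.1, hv _ he.2]

lemma sum_face {R : Finset Z2} {u : Z2 → ℝ} (hu : ∀ f, f ∉ R → u f = 0) (B : Bnd → ℝ)
    (k : Bnd → Z2) : ∑ e ∈ bd R, B e * u (k e) =
      ∑ f ∈ R, (∑ e ∈ (bd R).filter fun e => k e = f, B e) * u f := by
  have h1 : ∀ e, u (k e) = ∑ f ∈ R, if k e = f then u f else 0 := by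
    intro e
    rw [Finset.sum_ite_eq]
    split_ifs with h2
    · rfl
    · exact hu _ h2
  calc ∑ e ∈ bd R, B e * u (k e)
      = ∑ e ∈ bd R, B e * ∑ f ∈ R, if k e = f then u f else 0 :=
        Finset.sum_congr rfl fun e _ => by rw [← h1 e]
    _ = ∑ e ∈ bd R, ∑ f ∈ R, B e * if k e = f then u f else 0 :=
        Finset.sum_congr rfl fun e _ => Finset.mul_sum _ _ _
    _ = ∑ f ∈ R, ∑ e ∈ bd R, B e * if k e = f then u f else 0 := Finset.sum_comm
    _ = _ := by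
        refine Finset.sum_congr rfl fun f _ => ?_
        rw [Finset.sum_filter, Finset.sum_mul]
        refine Finset.sum_congr rfl fun e _ => ?_
        split_ifs <;> simp

lemma filter_lf {R : Finset Z2} {f : Z2} (hf : f ∈ R) :
    ((bd R).filter fun e => lf e = f) = {(f, false), ((f.1 + 1, f.2), true)} := by
  ext ⟨⟨x, y⟩, c⟩
  obtain ⟨i, j⟩ := f
  simp only [Finset.mem_filter, Finset.mem_insert, Finset.mem_singleton]
  constructor
  · rintro ⟨_, h2⟩
    cases c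
    · simp only [lf, Bool.false_eq_true, if_false, Prod.mk.injEq] at h2
      left
      simp only [Prod.mk.injEq, and_true]
      exact h2
    · simp only [lf, if_true, Prod.mk.injEq] at h2
      right
      simp only [Prod.mk.injEq, and_true]
      omega
  · intro h
    have h2 : lf ((x, y), c) = (i, j) := by
      rcases h with h | h
      · rw [h]; simp [lf]
      · rw [h]; simp [lf]
    exact ⟨H910.mem_bd.2 (Or.inr (h2 ▸ hf)), h2⟩

lemma filter_rt {R : Finset Z2} {f : Z2} (hf : f ∈ R) :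
    ((bd R).filter fun e => rt e = f) = {((f.1, f.2 + 1), false), (f, true)} := by
  ext ⟨⟨x, y⟩, c⟩
  obtain ⟨i, j⟩ := f
  simp only [Finset.mem_filter, Finset.mem_insert, Finset.mem_singleton]
  constructor
  · rintro ⟨_, h2⟩
    cases c
    · simp only [rt, Bool.false_eq_true, if_false, Prod.mk.injEq] at h2
      left
      simp only [Prod.mk.injEq, and_true]
      omega
    · simp only [rt, if_true, Prod.mk.injEq] at h2
      right
      simp only [Prod.mk.injEq, and_true]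
      exact h2
  · intro h
    have h2 : rt ((x, y), c) = (i, j) := by
      rcases h with h | h
      · rw [h]; simp [rt]
      · rw [h]; simp [rt]
    exact ⟨H910.mem_bd.2 (Or.inl (h2 ▸ hf)), h2⟩

/-- **summation by parts** for real functions -/
theorem sum_dr {R : Finset Z2} {u : Z2 → ℝ} (hu : ∀ f, f ∉ R → u f = 0) (B : Bnd → ℝ) :
    ∑ e ∈ bd R, B e * dr u e = ∑ f ∈ R, H910.dv B f * u f := by
  have h1 : ∑ e ∈ bd R, B e * dr u e = ∑ e ∈ bd R, B e * u (lf e) - ∑ e ∈ bd R, B e * u (rt e) := by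
    unfold dr
    rw [← Finset.sum_sub_distrib]
    exact Finset.sum_congr rfl fun e _ => by ring
  rw [h1, sum_face hu B lf, sum_face hu B rt, ← Finset.sum_sub_distrib]
  refine Finset.sum_congr rfl fun f hf => ?_
  rw [filter_lf hf, filter_rt hf, Finset.sum_pair (by simp), Finset.sum_pair (by simp)]
  unfold H910.dv
  ring

/-- the same over a larger set of bonds -/
theorem sum_dr' {R : Finset Z2} {S : Finset Bnd} (hS : bd R ⊆ S) {u : Z2 → ℝ}
    (hu : ∀ f, f ∉ R → u f = 0) (B : Bnd → ℝ) :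
    ∑ e ∈ S, B e * dr u e = ∑ f ∈ R, H910.dv B f * u f := by
  rw [← sum_dr hu B]
  refine (Finset.sum_subset hS fun e _ he => ?_).symm
  rw [dr_off hu he, mul_zero]

/-- **Green identity** -/
theorem green {R : Finset Z2} {S : Finset Bnd} (hS : bd R ⊆ S) {u : Z2 → ℝ}
    (hu : ∀ f, f ∉ R → u f = 0) (v : Z2 → ℝ) :
    ∑ e ∈ S, dr v e * dr u e = -∑ f ∈ R, lap v f * u f := by
  rw [sum_dr' hS hu, ← Finset.sum_neg_distrib]
  refine Finset.sum_congr rfl fun f _ => ?_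
  rw [dv_dr]
  ring

/-- orthogonality -/
theorem green_harm {R : Finset Z2} {S : Finset Bnd} (hS : bd R ⊆ S) {u v : Z2 → ℝ}
    (hu : ∀ f, f ∉ R → u f = 0) (hv : ∀ f ∈ R, lap v f = 0) :
    ∑ e ∈ S, dr v e * dr u e = 0 := by
  rw [green hS hu, Finset.sum_eq_zero fun f hf => by rw [hv f hf, zero_mul], neg_zero]

lemma dr_sub (v w : Z2 → ℝ) (e : Bnd) : dr (fun g => v g - w g) e = dr v e - dr w e := by
  unfold dr
  ring

lemma dr_add (v w : Z2 → ℝ) (e : Bnd) : dr (fun g => v g + w g) e = dr v e + dr w e := by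
  unfold dr
  ring

lemma dr_smul (c : ℝ) (v : Z2 → ℝ) (e : Bnd) : dr (fun g => c * v g) e = c * dr v e := by
  unfold dr
  ring

/-- **Dirichlet principle** (Pythagoras) -/
theorem pyth {R : Finset Z2} {S : Finset Bnd} (hS : bd R ⊆ S) {v t : Z2 → ℝ}
    (h0 : ∀ f, f ∉ R → v f = t f) (hv : ∀ f ∈ R, lap v f = 0) :
    ∑ e ∈ S, dr t e ^ 2 = ∑ e ∈ S, dr v e ^ 2 + ∑ e ∈ S, dr (fun g => t g - v g) e ^ 2 := by
  have h1 := green_harm hS (u := fun g => t g - v g) (v := v)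
    (fun f hf => by rw [h0 f hf, sub_self]) hv
  rw [← Finset.sum_add_distrib]
  have h2 : ∑ e ∈ S, dr t e ^ 2 = ∑ e ∈ S, (dr v e ^ 2 + dr (fun g => t g - v g) e ^ 2) +
      2 * ∑ e ∈ S, dr v e * dr (fun g => t g - v g) e := by
    rw [Finset.mul_sum, ← Finset.sum_add_distrib]
    refine Finset.sum_congr rfl fun e _ => ?_
    rw [dr_sub]
    ring
  rw [h2, h1]
  ring

theorem dirichlet_le {R : Finset Z2} {S : Finset Bnd} (hS : bd R ⊆ S) {v t : Z2 → ℝ}
    (h0 : ∀ f, f ∉ R → v f = t f) (hv : ∀ f ∈ R, lap v f = 0) :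
    ∑ e ∈ S, dr v e ^ 2 ≤ ∑ e ∈ S, dr t e ^ 2 := by
  rw [pyth hS h0 hv]
  linarith [Finset.sum_nonneg fun e (_ : e ∈ S) => sq_nonneg (dr (fun g => t g - v g) e)]

theorem dirichlet_sub_le {R : Finset Z2} {S : Finset Bnd} (hS : bd R ⊆ S) {v t : Z2 → ℝ}
    (h0 : ∀ f, f ∉ R → v f = t f) (hv : ∀ f ∈ R, lap v f = 0) :
    ∑ e ∈ S, dr (fun g => t g - v g) e ^ 2 ≤ ∑ e ∈ S, dr t e ^ 2 := by
  rw [pyth hS h0 hv]
  linarith [Finset.sum_nonneg fun e (_ : e ∈ S) => sq_nonneg (dr v e)]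

/-! ### Caccioppoli -/

/-- product rule -/
lemma dr_prod (χ u : Z2 → ℝ) (e : Bnd) : dr (fun g => χ g * u g) e ^ 2 =
    u (lf e) * u (rt e) * dr χ e ^ 2 + dr (fun g => χ g ^ 2 * u g) e * dr u e := by
  unfold dr
  ring

/-- **local Caccioppoli identity**: `w` is harmonic on the finite set `T` which contains the
support of the cut-off `χ` -/
theorem cacc_id {T : Finset Z2} {S : Finset Bnd} (hS : bd T ⊆ S) {w χ : Z2 → ℝ}
    (hw : ∀ f ∈ T, lap w f = 0) (hχ : ∀ f, f ∉ T → χ f = 0) :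
    ∑ e ∈ S, dr (fun g => χ g * w g) e ^ 2 = ∑ e ∈ S, w (lf e) * w (rt e) * dr χ e ^ 2 := by
  have h1 := green_harm hS (u := fun g => χ g ^ 2 * w g) (v := w)
    (fun f hf => by rw [hχ f hf]; ring) hw
  have h2 : ∑ e ∈ S, dr (fun g => χ g * w g) e ^ 2 =
      ∑ e ∈ S, w (lf e) * w (rt e) * dr χ e ^ 2 +
        ∑ e ∈ S, dr w e * dr (fun g => χ g ^ 2 * w g) e := by
    rw [← Finset.sum_add_distrib]
    refine Finset.sum_congr rfl fun e _ => ?_
    rw [dr_prod]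
    ring
  rw [h2, h1, add_zero]

/-- **local Caccioppoli inequality** -/
theorem cacc_loc {T : Finset Z2} {S : Finset Bnd} (hS : bd T ⊆ S) {w χ : Z2 → ℝ}
    (hw : ∀ f ∈ T, lap w f = 0) (hχ : ∀ f, f ∉ T → χ f = 0) :
    ∑ e ∈ S, dr (fun g => χ g * w g) e ^ 2 ≤
      ∑ e ∈ S, (w (lf e) ^ 2 + w (rt e) ^ 2) / 2 * dr χ e ^ 2 := by
  rw [cacc_id hS hw hχ]
  refine Finset.sum_le_sum fun e _ => mul_le_mul_of_nonneg_right ?_ (sq_nonneg _)
  nlinarith [sq_nonneg (w (lf e) - w (rt e))]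

/-- the energy on the bonds where the cut-off is `1` -/
theorem cacc_one {T : Finset Z2} {S S1 : Finset Bnd} (hS : bd T ⊆ S) (hS1 : S1 ⊆ S)
    {w χ : Z2 → ℝ} (hw : ∀ f ∈ T, lap w f = 0) (hχ : ∀ f, f ∉ T → χ f = 0)
    (h1 : ∀ e ∈ S1, χ (lf e) = 1 ∧ χ (rt e) = 1) :
    ∑ e ∈ S1, dr w e ^ 2 ≤ ∑ e ∈ S, (w (lf e) ^ 2 + w (rt e) ^ 2) / 2 * dr χ e ^ 2 := by
  refine le_trans ?_ (cacc_loc hS hw hχ)
  have h2 : ∑ e ∈ S1, dr w e ^ 2 = ∑ e ∈ S1, dr (fun g => χ g * w g) e ^ 2 := by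
    refine Finset.sum_congr rfl fun e he => ?_
    unfold dr
    simp only
    rw [(h1 e he).1, (h1 e he).2, one_mul, one_mul]
  rw [h2]
  exact Finset.sum_le_sum_of_subset_of_nonneg hS1 fun e _ _ => sq_nonneg _

/-- **Caccioppoli inequality up to the boundary**: `v` harmonic on `R`, `v = t` off `R`,
`u = t - v`, `|u| ≤ M`, `0 ≤ χ ≤ 1`. -/
theorem cacc_bdry {R : Finset Z2} {S : Finset Bnd} (hS : bd R ⊆ S) {v t χ : Z2 → ℝ}
    (h0 : ∀ f, f ∉ R → v f = t f) (hv : ∀ f ∈ R, lap v f = 0) (hχ0 : ∀ f, 0 ≤ χ f)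
    (hχ1 : ∀ f, χ f ≤ 1) {M : ℝ} (hM : ∀ f, |t f - v f| ≤ M) :
    ∑ e ∈ S, dr (fun g => χ g * (t g - v g)) e ^ 2 ≤
      2 * M ^ 2 * ∑ e ∈ S, dr χ e ^ 2 +
        ∑ e ∈ S, ((χ (lf e) + χ (rt e)) / 2) ^ 2 * dr t e ^ 2 +
        2 * M * ∑ e ∈ S, |dr χ e| * |dr t e| := by
  set u : Z2 → ℝ := fun g => t g - v g with hu
  have hM0 : 0 ≤ M := (abs_nonneg _).trans (hM (0, 0))
  have h1 := green_harm hS (u := fun g => χ g ^ 2 * u g) (v := v)
    (fun f hf => by simp only [hu]; rw [h0 f hf]; ring) hv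
  have h2 : ∀ e ∈ S, dr (fun g => χ g * u g) e ^ 2 ≤ 2 * M ^ 2 * dr χ e ^ 2 +
      ((χ (lf e) + χ (rt e)) / 2) ^ 2 * dr t e ^ 2 + 2 * M * (|dr χ e| * |dr t e|) -
        2 * (dr v e * dr (fun g => χ g ^ 2 * u g) e) := by
    intro e _
    have e1 := dr_prod χ u e
    have e2 : dr u e = dr t e - dr v e := dr_sub t v e
    -- `dr (χ² u) = mean χ * dr (χ u) + mean (χ u) * dr χ`
    have e3 : dr (fun g => χ g ^ 2 * u g) e =
        (χ (lf e) + χ (rt e)) / 2 * dr (fun g => χ g * u g) e +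
          (χ (lf e) * u (lf e) + χ (rt e) * u (rt e)) / 2 * dr χ e := by
      unfold dr
      ring
    have e4 : u (lf e) * u (rt e) * dr χ e ^ 2 ≤ M ^ 2 * dr χ e ^ 2 := by
      refine mul_le_mul_of_nonneg_right ?_ (sq_nonneg _)
      calc u (lf e) * u (rt e) ≤ |u (lf e) * u (rt e)| := le_abs_self _
        _ = |u (lf e)| * |u (rt e)| := abs_mul _ _
        _ ≤ M * M := mul_le_mul (hM _) (hM _) (abs_nonneg _) hM0
        _ = M ^ 2 := by ring
    have e5 : |(χ (lf e) * u (lf e) + χ (rt e) * u (rt e)) / 2| ≤ M := by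
      have a1 : ∀ f, |χ f * u f| ≤ M := fun f => by
        rw [abs_mul, abs_of_nonneg (hχ0 f)]
        calc χ f * |u f| ≤ 1 * M := mul_le_mul (hχ1 f) (hM f) (abs_nonneg _) zero_le_one
          _ = M := one_mul M
      rw [abs_div, abs_of_pos (zero_lt_two' ℝ), div_le_iff₀ (zero_lt_two' ℝ)]
      calc _ ≤ |χ (lf e) * u (lf e)| + |χ (rt e) * u (rt e)| := abs_add_le _ _
        _ ≤ M * 2 := by linarith [a1 (lf e), a1 (rt e)]
    have e6 : (χ (lf e) * u (lf e) + χ (rt e) * u (rt e)) / 2 * dr χ e * dr t e ≤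
        M * (|dr χ e| * |dr t e|) := by
      calc _ ≤ |(χ (lf e) * u (lf e) + χ (rt e) * u (rt e)) / 2 * dr χ e * dr t e| :=
            le_abs_self _
        _ = |(χ (lf e) * u (lf e) + χ (rt e) * u (rt e)) / 2| * (|dr χ e| * |dr t e|) := by
            rw [abs_mul, abs_mul]; ring
        _ ≤ _ := mul_le_mul_of_nonneg_right e5 (by positivity)
    have e7 : (χ (lf e) + χ (rt e)) / 2 * dr (fun g => χ g * u g) e * dr t e ≤
        1 / 2 * dr (fun g => χ g * u g) e ^ 2 +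
          1 / 2 * (((χ (lf e) + χ (rt e)) / 2) ^ 2 * dr t e ^ 2) := by
      nlinarith [sq_nonneg (dr (fun g => χ g * u g) e -
        (χ (lf e) + χ (rt e)) / 2 * dr t e)]
    have e8 : dr (fun g => χ g ^ 2 * u g) e * dr t e =
        (χ (lf e) + χ (rt e)) / 2 * dr (fun g => χ g * u g) e * dr t e +
          (χ (lf e) * u (lf e) + χ (rt e) * u (rt e)) / 2 * dr χ e * dr t e := by
      rw [e3]
      ring
    have e9 : dr (fun g => χ g ^ 2 * u g) e * dr u e =
        dr (fun g => χ g ^ 2 * u g) e * dr t e -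
          dr v e * dr (fun g => χ g ^ 2 * u g) e := by
      rw [e2]
      ring
    rw [e9] at e1
    linarith
  have h3 := Finset.sum_le_sum h2
  rw [Finset.sum_sub_distrib, Finset.sum_add_distrib, Finset.sum_add_distrib, ← Finset.mul_sum,
    ← Finset.mul_sum, ← Finset.mul_sum, h1, mul_zero, sub_zero] at h3
  exact h3

/-! ### truncation -/

/-- truncated functions have smaller energy: `G` monotone and `1`-Lipschitz -/
lemma trunc_pt {G : ℝ → ℝ} (h1 : Monotone G) (h2 : ∀ x y, |G x - G y| ≤ |x - y|) (u : Z2 → ℝ)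
    (e : Bnd) : dr (fun g => G (u g)) e ^ 2 ≤ dr u e * dr (fun g => G (u g)) e := by
  unfold dr
  have h3 := h2 (u (lf e)) (u (rt e))
  rcases le_total (u (rt e)) (u (lf e)) with h | h
  · have h4 : 0 ≤ G (u (lf e)) - G (u (rt e)) := sub_nonneg.2 (h1 h)
    rw [abs_of_nonneg h4, abs_of_nonneg (sub_nonneg.2 h)] at h3
    nlinarith
  · have h4 : G (u (lf e)) - G (u (rt e)) ≤ 0 := sub_nonpos.2 (h1 h)
    rw [abs_of_nonpos h4, abs_of_nonpos (sub_nonpos.2 h)] at h3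
    nlinarith

/-- **energy of the truncation** -/
theorem trunc_le {R : Finset Z2} {S : Finset Bnd} (hS : bd R ⊆ S) {u : Z2 → ℝ}
    (hu : ∀ f, f ∉ R → u f = 0) {G : ℝ → ℝ} (h0 : G 0 = 0) (h1 : Monotone G)
    (h2 : ∀ x y, |G x - G y| ≤ |x - y|) :
    ∑ e ∈ S, dr (fun g => G (u g)) e ^ 2 ≤ -∑ f ∈ R, lap u f * G (u f) := by
  rw [← green hS (u := fun g => G (u g)) (fun f hf => by rw [hu f hf, h0]) u]
  exact Finset.sum_le_sum fun e _ => trunc_pt h1 h2 u e

/-- the clamp -/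
def clm (s x : ℝ) : ℝ := max (-s) (min x s)

lemma clm_mono (s : ℝ) : Monotone (clm s) := fun _ _ h =>
  max_le_max le_rfl (min_le_min h le_rfl)

lemma clm_zero {s : ℝ} (hs : 0 ≤ s) : clm s 0 = 0 := by
  unfold clm
  rw [min_eq_left hs, max_eq_right (by linarith)]

lemma clm_abs {s : ℝ} (hs : 0 ≤ s) (x : ℝ) : |clm s x| ≤ s := by
  unfold clm
  rw [abs_le]
  exact ⟨le_max_left _ _, max_le (by linarith) (min_le_right _ _)⟩

lemma clm_eq {s x : ℝ} (h : |x| ≤ s) : clm s x = x := by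
  unfold clm
  rw [min_eq_left (abs_le.1 h).2, max_eq_right (abs_le.1 h).1]

lemma clm_lip (s x y : ℝ) : |clm s x - clm s y| ≤ |x - y| := by
  unfold clm
  calc |max (-s) (min x s) - max (-s) (min y s)| ≤ |min x s - min y s| := by
        rw [max_comm (-s), max_comm (-s)]
        exact abs_max_sub_max_le_abs _ _ _
    _ ≤ |x - y| := by
        have := abs_min_sub_min_le_max x s y s
        rwa [sub_self, abs_zero, max_eq_left (abs_nonneg _)] at this

end Vale.Agent.P159.T1.S.H469
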