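import Vale.Agent.P159.T1.H910.DKit

/-!
Discrete potential theory on `ℤ²` (functions on the faces): maximum principle, Dirichlet problem,
gradient bounds for discrete harmonic functions.
-/

open Filter Topology

namespace Vale.Agent.P159.T1.S.H469

open Vale.Agent.P159.T1.D

/-- the discrete Laplace operator -/
def lap (v : Z2 → ℝ) (f : Z2) : ℝ :=
  v (f.1 + 1, f.2) + v (f.1 - 1, f.2) + v (f.1, f.2 + 1) + v (f.1, f.2 - 1) - 4 * v f

/-- neighbours -/
def nb (f : Z2) : Finset Z2 :=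
  {(f.1 + 1, f.2), (f.1 - 1, f.2), (f.1, f.2 + 1), (f.1, f.2 - 1)}

lemma mem_nb {f g : Z2} : g ∈ nb f ↔ g = (f.1 + 1, f.2) ∨ g = (f.1 - 1, f.2) ∨
    g = (f.1, f.2 + 1) ∨ g = (f.1, f.2 - 1) := by
  unfold nb
  simp only [Finset.mem_insert, Finset.mem_singleton]

lemma lap_add (v w : Z2 → ℝ) (f : Z2) : lap (fun g => v g + w g) f = lap v f + lap w f := by
  unfold lap
  ring

lemma lap_sub (v w : Z2 → ℝ) (f : Z2) : lap (fun g => v g - w g) f = lap v f - lap w f := by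
  unfold lap
  ring

lemma lap_smul (c : ℝ) (v : Z2 → ℝ) (f : Z2) : lap (fun g => c * v g) f = c * lap v f := by
  unfold lap
  ring

lemma lap_neg (v : Z2 → ℝ) (f : Z2) : lap (fun g => -v g) f = -lap v f := by
  unfold lap
  ring

/-- the Laplace operator is the divergence of the gradient -/
lemma dv_dr (v : Z2 → ℝ) (f : Z2) : H910.dv (dr v) f = -lap v f := by
  unfold H910.dv dr lap
  simp only [lf, rt, Bool.false_eq_true, if_false, if_true, add_sub_cancel_right]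
  ring

/-! ### the maximum principle -/

/-- **maximum principle**, general form: the condition on the outside is needed only next to
points where `v` is positive -/
theorem max_pr {R : Finset Z2} {v : Z2 → ℝ} (h1 : ∀ f ∈ R, 0 ≤ lap v f)
    (h2 : ∀ f ∈ R, 0 < v f → ∀ g ∈ nb f, g ∉ R → v g ≤ 0) : ∀ f ∈ R, v f ≤ 0 := by
  by_contra hc
  push Not at hc
  obtain ⟨f0, hf0, hpos⟩ := hc
  obtain ⟨f1, hf1, hmax⟩ := R.exists_max_image v ⟨f0, hf0⟩
  obtain ⟨f2, hf2, hfst⟩ := (R.filter fun f => v f1 ≤ v f).exists_max_image (fun f => f.1)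
    ⟨f1, Finset.mem_filter.2 ⟨hf1, le_rfl⟩⟩
  obtain ⟨hf2R, hf2v⟩ := Finset.mem_filter.1 hf2
  have hp : 0 < v f2 := lt_of_lt_of_le (hpos.trans_le (hmax f0 hf0)) hf2v
  have hle : ∀ g ∈ nb f2, v g ≤ v f2 := by
    intro g hg
    by_cases hgR : g ∈ R
    · exact (hmax g hgR).trans hf2v
    · exact (h2 f2 hf2R hp g hg hgR).trans hp.le
  have hlt : v (f2.1 + 1, f2.2) < v f2 := by
    by_cases hgR : (f2.1 + 1, f2.2) ∈ R
    · by_contra hge
      push Not at hge
      have := hfst (f2.1 + 1, f2.2) (Finset.mem_filter.2 ⟨hgR, hf2v.trans hge⟩)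
      simp only at this
      omega
    · exact (h2 f2 hf2R hp _ (mem_nb.2 (Or.inl rfl)) hgR).trans_lt hp
  have e2 := hle (f2.1 - 1, f2.2) (mem_nb.2 (Or.inr (Or.inl rfl)))
  have e3 := hle (f2.1, f2.2 + 1) (mem_nb.2 (Or.inr (Or.inr (Or.inl rfl))))
  have e4 := hle (f2.1, f2.2 - 1) (mem_nb.2 (Or.inr (Or.inr (Or.inr rfl))))
  have e5 := h1 f2 hf2R
  unfold lap at e5
  linarith

/-- **comparison** -/
theorem compar {R : Finset Z2} {v w : Z2 → ℝ} (h1 : ∀ f ∈ R, lap w f ≤ lap v f)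
    (h2 : ∀ f ∈ R, ∀ g ∈ nb f, g ∉ R → v g ≤ w g) : ∀ f ∈ R, v f ≤ w f := by
  intro f hf
  have h3 := max_pr (R := R) (v := fun g => v g - w g)
    (fun g hg => by rw [lap_sub]; linarith [h1 g hg])
    (fun g hg _ k hk hkR => by linarith [h2 g hg k hk hkR]) f hf
  linarith

/-- subharmonic functions are bounded by their values on the outer boundary -/
theorem le_of_sub {R : Finset Z2} {v : Z2 → ℝ} {M : ℝ} (h1 : ∀ f ∈ R, 0 ≤ lap v f)
    (h2 : ∀ f ∈ R, ∀ g ∈ nb f, g ∉ R → v g ≤ M) : ∀ f ∈ R, v f ≤ M :=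
  compar (w := fun _ => M) (fun f hf => by
    have : lap (fun _ => M) f = 0 := by unfold lap; ring
    rw [this]
    exact h1 f hf) h2

/-- superharmonic functions -/
theorem ge_of_super {R : Finset Z2} {v : Z2 → ℝ} {M : ℝ} (h1 : ∀ f ∈ R, lap v f ≤ 0)
    (h2 : ∀ f ∈ R, ∀ g ∈ nb f, g ∉ R → M ≤ v g) : ∀ f ∈ R, M ≤ v f :=
  compar (v := fun _ => M) (fun f hf => by
    have : lap (fun _ => M) f = 0 := by unfold lap; ring
    rw [this]
    exact h1 f hf) h2

/-- **bound of harmonic functions by the boundary values** -/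
theorem abs_le_of_harm {R : Finset Z2} {v : Z2 → ℝ} {M : ℝ} (h1 : ∀ f ∈ R, lap v f = 0)
    (h2 : ∀ f ∈ R, ∀ g ∈ nb f, g ∉ R → |v g| ≤ M) : ∀ f ∈ R, |v f| ≤ M := fun f hf =>
  abs_le.2 ⟨ge_of_super (fun g hg => (h1 g hg).le)
    (fun g hg k hk hkR => (abs_le.1 (h2 g hg k hk hkR)).1) f hf,
    le_of_sub (fun g hg => (h1 g hg).ge)
    (fun g hg k hk hkR => (abs_le.1 (h2 g hg k hk hkR)).2) f hf⟩

/-! ### the Dirichlet problem -/

open Classical in
/-- extension by `0` -/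
noncomputable def ex0 (R : Finset Z2) (u : {f : Z2 // f ∈ R} → ℝ) (f : Z2) : ℝ :=
  if h : f ∈ R then u ⟨f, h⟩ else 0

lemma ex0_mem {R : Finset Z2} (u : {f : Z2 // f ∈ R} → ℝ) (f : {f : Z2 // f ∈ R}) :
    ex0 R u f.1 = u f := by
  unfold ex0
  rw [dif_pos f.2]

lemma ex0_not {R : Finset Z2} (u : {f : Z2 // f ∈ R} → ℝ) {f : Z2} (h : f ∉ R) :
    ex0 R u f = 0 := by
  unfold ex0
  rw [dif_neg h]

lemma ex0_add {R : Finset Z2} (u w : {f : Z2 // f ∈ R} → ℝ) (f : Z2) :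
    ex0 R (u + w) f = ex0 R u f + ex0 R w f := by
  unfold ex0
  split_ifs
  · rfl
  · ring

lemma ex0_smul {R : Finset Z2} (c : ℝ) (u : {f : Z2 // f ∈ R} → ℝ) (f : Z2) :
    ex0 R (c • u) f = c * ex0 R u f := by
  unfold ex0
  split_ifs
  · rfl
  · ring

/-- the Laplace operator of `R` with zero boundary values -/
noncomputable def lapR (R : Finset Z2) :
    ({f : Z2 // f ∈ R} → ℝ) →ₗ[ℝ] ({f : Z2 // f ∈ R} → ℝ) where
  toFun u := fun f => lap (ex0 R u) f.1
  map_add' u w := by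
    funext f
    unfold lap
    simp only [ex0_add, Pi.add_apply]
    ring
  map_smul' c u := by
    funext f
    unfold lap
    simp only [ex0_smul, Pi.smul_apply, smul_eq_mul, RingHom.id_apply]
    ring

lemma lapR_inj (R : Finset Z2) : Function.Injective (lapR R) := by
  rw [injective_iff_map_eq_zero]
  intro u hu
  have h1 : ∀ f ∈ R, lap (ex0 R u) f = 0 := fun f hf => congrFun hu ⟨f, hf⟩
  have h2 := abs_le_of_harm (M := 0) h1 fun f _ g _ hg => by rw [ex0_not u hg, abs_zero]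
  funext f
  have h3 := h2 f.1 f.2
  rw [ex0_mem] at h3
  exact abs_nonpos_iff.1 h3

/-- **Poisson problem with zero boundary values** -/
theorem poisson (R : Finset Z2) (ρ : Z2 → ℝ) :
    ∃ u : Z2 → ℝ, (∀ f, f ∉ R → u f = 0) ∧ ∀ f ∈ R, lap u f = ρ f := by
  obtain ⟨u, hu⟩ := (LinearMap.injective_iff_surjective.1 (lapR_inj R)) fun f => ρ f.1
  exact ⟨ex0 R u, fun f hf => ex0_not u hf, fun f hf => congrFun hu ⟨f, hf⟩⟩

/-- **Dirichlet problem** -/
theorem dirichlet (R : Finset Z2) (t : Z2 → ℝ) :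
    ∃ v : Z2 → ℝ, (∀ f, f ∉ R → v f = t f) ∧ ∀ f ∈ R, lap v f = 0 := by
  obtain ⟨u, h1, h2⟩ := poisson R fun f => -lap t f
  refine ⟨fun f => t f + u f, fun f hf => by
    show t f + u f = t f
    rw [h1 f hf, add_zero], fun f hf => ?_⟩
  rw [lap_add, h2 f hf]
  ring

/-- uniqueness -/
theorem dirichlet_unique {R : Finset Z2} {v w : Z2 → ℝ} (h0 : ∀ f, f ∉ R → v f = w f)
    (h1 : ∀ f ∈ R, lap v f = lap w f) : v = w := by
  have h2 := abs_le_of_harm (R := R) (v := fun f => v f - w f) (M := 0)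
    (fun f hf => by rw [lap_sub, h1 f hf, sub_self])
    (fun f _ g _ hg => by rw [h0 g hg, sub_self, abs_zero])
  funext f
  by_cases hf : f ∈ R
  · exact sub_eq_zero.1 (abs_nonpos_iff.1 (h2 f hf))
  · exact h0 f hf

end Vale.Agent.P159.T1.S.H469
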